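import Vale.Agent.Lib.P256.Fam

/-!
P256 (Projected Lax conjecture): the class of hyperbolic polynomials whose hyperbolicity cone is a
spectrahedral shadow is closed under products and under linear substitutions.
-/

namespace Vale.Agent.Results.P256.ProductsAndSections

open _root_.P256 MvPolynomial Matrix

theorem result :
    (∀ (m : ℕ) (ι : Type) (s : Finset ι) (N : ι → ℕ) (p : ∀ i, MvPolynomial (Fin (N i)) ℝ)
        (L : ∀ i, Matrix (Fin (N i)) (Fin m) ℝ) (e : Fin m → ℝ),
        (∀ i ∈ s, Hyperbolic (p i) (L i *ᵥ e)) →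
        Hyperbolic (∏ i ∈ s, pull (L i) (p i)) e ∧
          cone (∏ i ∈ s, pull (L i) (p i)) e
            = {y | ∀ i ∈ s, L i *ᵥ y ∈ cone (p i) (L i *ᵥ e)} ∧
          ((∀ i ∈ s, IsShadow (cone (p i) (L i *ᵥ e))) →
            IsShadow (cone (∏ i ∈ s, pull (L i) (p i)) e))) ∧
    (∀ (n : ℕ) (p q : MvPolynomial (Fin n) ℝ) (e : Fin n → ℝ), Hyperbolic p e → Hyperbolic q e →
        Hyperbolic (p * q) e ∧ cone (p * q) e = cone p e ∩ cone q e ∧
          (IsShadow (cone p e) → IsShadow (cone q e) → IsShadow (cone (p * q) e))) ∧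
    (∀ (n : ℕ) (p q : MvPolynomial (Fin n) ℝ) (x : Fin n → ℝ), eval x p = 0 → eval x q = 0 →
        ∀ i, eval x (pderiv i (p * q)) = 0) := by
  refine ⟨fun m ι s N p L e hp => family s N p L e hp, fun n p q e hp hq => ?_,
    fun n p q x hp hq i => not_smooth_mul p q x hp hq i⟩
  refine ⟨hyperbolic_mul hp hq, cone_mul p q e, fun h1 h2 => ?_⟩
  rw [cone_mul]
  exact isShadow_inter h1 h2

end Vale.Agent.Results.P256.ProductsAndSections
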